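import Vale.Agent.P111.Final

/-!
# P111 (cotype-cotype conjecture): approximating operators on copies of `ℓ_1^k` have huge rank

Let `X` be a real normed space whose dual has cotype `r` with constant `C`.

1. If `e_1, …, e_k` span a `lam`-isomorphic copy of `ℓ_1^k` in `X` and `S` is a finite rank operator on `X` with
   `‖S e_i - e_i‖ ≤ 1 / (2 lam)`, then `k^{1/r} ≤ 10 C lam ‖S‖ (1 + log (rank S))`.
2. Hence, if `X` has the bounded approximation property with ranks controlled by a function `m` of the number of points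
   (uniform approximation property) and `log (m k) / k^{1/r}` has lower limit zero, then `X` does not contain the `ℓ_1^k` uniformly.
3. The norm `K` of the Rademacher projection `Rad_k` on `L_2({-1,1}^k; X)` satisfies `k^{1/r} ≤ C lam K`.
-/

open Vale.Agent.P111 Vale.Agent.P111.Final Module Filter

universe u

theorem Vale.Agent.Results.P111.RankLowerBound.result :
    (∀ (X : Type u) [NormedAddCommGroup X] [NormedSpace ℝ X] (r C lam : ℝ) (k : ℕ)
      (e : Fin k → X) (S : X →L[ℝ] X), 2 ≤ r → HasCotype (StrongDual ℝ X) r C →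
      IsL1Copy e lam → 1 ≤ k → FiniteDimensional ℝ (LinearMap.range (S : X →ₗ[ℝ] X)) →
      (∀ i, ‖S (e i) - e i‖ ≤ 1 / (2 * lam)) →
      (k : ℝ) ^ (1 / r) ≤ 10 * C * lam * ‖S‖ *
        (1 + Real.log (finrank ℝ (LinearMap.range (S : X →ₗ[ℝ] X))))) ∧
    (∀ (X : Type u) [NormedAddCommGroup X] [NormedSpace ℝ X] (r C mu : ℝ) (m : ℕ → ℕ),
      2 ≤ r → HasCotype (StrongDual ℝ X) r C → HasRankBAP X mu m →
      (∀ c : ℝ, 0 < c → ∃ᶠ k in atTop, Real.log (m k) ≤ c * (k : ℝ) ^ (1 / r)) →
      ¬ ContainsL1Uniformly X) ∧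
    (∀ (X : Type u) [NormedAddCommGroup X] [NormedSpace ℝ X] (r C lam K : ℝ) (k : ℕ)
      (e : Fin k → X), 2 ≤ r → HasCotype (StrongDual ℝ X) r C → IsL1Copy e lam → 1 ≤ k →
      (∀ f : Cube k → X, L2 (Rad f) ≤ K * L2 f) → (k : ℝ) ^ (1 / r) ≤ C * lam * K) :=
  all
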